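import Vale.Agent.Lib.P193.Magnus

/-- For every `r` there is a homomorphism from the free group of rank `r` to the Brin-Thompson
group `rV` whose kernel is the second derived subgroup: the free metabelian group of rank `r`
embeds in `rV`. -/
theorem Vale.Agent.Results.P193.FreeMetabelian.result (r : ℕ) :
    ∃ f : FreeGroup (Fin r) →* Vale.Agent.Lib.P193.BT (Fin r),
      f.ker = derivedSeries (FreeGroup (Fin r)) 2 :=
  Vale.Agent.Lib.P193.free_metabelian_embedding r
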